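import Vale.Agent.P331.H250.Ker
import Vale.Agent.P331.H379.JLabel

/-!
# One step of the chain, in abstract form

Labels: `v` (test), `a` (visible pool/noise sample), `s` (second visible sample), `o` (rest).
`Bad` is an event on which a set `K` of test elements is good at the upper level; `FAIL` is the
event (for a fresh thinning `G₂` of the `a`-sample) that no small subset of `K` is good at the
lower level.  The theorem bounds the probability of `Bad`.
-/

set_option autoImplicit false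
set_option linter.unusedSectionVars false

namespace Vale.Agent.P331.H420

open Finset Vale.Agent.P331.H489 Vale.Agent.P331.H250 Vale.Agent.P331.H379
open scoped Classical

/-- indicator -/
noncomputable def ind (P : Prop) : ℝ := if P then 1 else 0

theorem ind_nonneg (P : Prop) : 0 ≤ ind P := by unfold ind; split_ifs <;> norm_num
theorem ind_le_one (P : Prop) : ind P ≤ 1 := by unfold ind; split_ifs <;> norm_num
theorem ind_of {P : Prop} (h : P) : ind P = 1 := if_pos h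
theorem ind_of_not {P : Prop} (h : ¬ P) : ind P = 0 := if_neg h

/-- base labels -/
inductive L4 | v | a | s | o
  deriving DecidableEq

/-- labels with the pool `h` split off the `a`-sample -/
inductive L5 | v | h | r | s | o
  deriving DecidableEq

instance : Fintype L4 := ⟨{.v, .a, .s, .o}, by intro x; cases x <;> decide⟩
instance : Fintype L5 := ⟨{.v, .h, .r, .s, .o}, by intro x; cases x <;> decide⟩

theorem sum_L4 (f : L4 → ℝ) : ∑ l, f l = f .v + f .a + f .s + f .o := by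
  have h : (univ : Finset L4) = {.v, .a, .s, .o} := rfl
  rw [h, sum_insert (by decide), sum_insert (by decide), sum_insert (by decide), sum_singleton]
  ring

theorem sum_L5 (f : L5 → ℝ) : ∑ l, f l = f .v + f .h + f .r + f .s + f .o := by
  have h : (univ : Finset L5) = {.v, .h, .r, .s, .o} := rfl
  rw [h, sum_insert (by decide), sum_insert (by decide), sum_insert (by decide),
    sum_insert (by decide), sum_singleton]
  ring

/-- forget the split -/
def fold : L5 → L4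
  | .v => .v
  | .h => .a
  | .r => .a
  | .s => .s
  | .o => .o

/-- the weights after splitting the pool off with keep probability `g` -/
def w5 (g : ℝ) (w : L4 → ℝ) : L5 → ℝ
  | .v => w .v
  | .h => w .a * g
  | .r => w .a * (1 - g)
  | .s => w .s
  | .o => w .o

theorem w5_nonneg {g : ℝ} {w : L4 → ℝ} (h0 : 0 ≤ g) (h1 : g ≤ 1) (hw : ∀ l, 0 ≤ w l) (l : L5) :
    0 ≤ w5 g w l := by
  cases l
  · exact hw _
  · exact mul_nonneg (hw _) h0
  · exact mul_nonneg (hw _) (by linarith)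
  · exact hw _
  · exact hw _

theorem w5_sum {g : ℝ} {w : L4 → ℝ} (hw : ∑ l, w l = 1) : ∑ l, w5 g w l = 1 := by
  rw [sum_L4] at hw
  rw [sum_L5]
  simp only [w5]
  linarith

variable {E : Type*} [Fintype E] [DecidableEq E]

/-- split the pool off -/
theorem EX_pool (w : L4 → ℝ) (g : ℝ) (F : (E → L4) → Finset E → ℝ) :
    EX (fun _ : E => w) (fun ω => TH (fun _ => g) (lset .a ω) (fun G => F ω G)) =
      EX (fun _ : E => w5 g w) (fun τ => F (fold ∘ τ) (lset .h τ)) := by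
  let k : E → L4 → Bool → ℝ := fun _ l b =>
    if l = .a then (if b then g else 1 - g) else (if b then 0 else 1)
  let m : L4 × Bool → L5 := fun x =>
    match x.1, x.2 with
    | .v, _ => .v
    | .a, true => .h
    | .a, false => .r
    | .s, _ => .s
    | .o, _ => .o
  have h1 : EX (fun _ : E => w) (fun ω => TH (fun _ => g) (lset .a ω) (fun G => F ω G)) =
      EX (fun _ : E => w) (fun ω => EX (fun e => k e (ω e)) (fun b => F ω (tset b))) := by
    unfold TH
    refine EX_congr (fun _ _ => rfl) fun ω => EX_congr (fun e b => ?_) fun _ => rfl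
    simp only [bw, k, mem_lset]
  have hf : ∀ τ : E → L4 × Bool, (∀ e, w (τ e).1 * k e (τ e).1 (τ e).2 ≠ 0) →
      F (fun e => (τ e).1) (tset fun e => (τ e).2) =
        (fun κ : E → L5 => F (fold ∘ κ) (lset .h κ)) (m ∘ τ) := by
    intro τ hτ
    have e1 : (fun e => (τ e).1) = fold ∘ m ∘ τ := by
      funext e
      simp only [Function.comp, m]
      rcases τ e with ⟨l, b⟩
      cases l <;> cases b <;> rfl
    have e2 : (tset fun e => (τ e).2) = lset .h (m ∘ τ) := by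
      ext e
      rw [mem_tset, mem_lset]
      have he := hτ e
      simp only [Function.comp, m]
      rcases hh : τ e with ⟨l, b⟩
      rw [hh] at he
      cases l <;> cases b <;> simp_all [k]
    show F (fun e => (τ e).1) (tset fun e => (τ e).2) = F (fold ∘ (m ∘ τ)) (lset .h (m ∘ τ))
    rw [← e2]
    exact congrArg (fun x => F x (tset fun e => (τ e).2)) e1
  rw [h1, EX_bind (fun _ : E => w) k (fun ω b => F ω (tset b)), EX_congr_supp hf]
  refine (EX_push m _ (fun κ : E → L5 => F (fold ∘ κ) (lset .h κ))).trans ?_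
  refine EX_congr (fun e c => ?_) fun _ => rfl
  rw [sum_filter, Fintype.sum_prod_type, sum_L4]
  simp only [Fintype.sum_bool]
  cases c <;> simp [m, k, w5]

attribute [local irreducible] Vale.Agent.P331.H489.EX Vale.Agent.P331.H250.TH

/-- `Y ∪ G ∪ N` has small `φ`-average for some small `Y ⊆ A` -/
def good (φ : Finset E → ℝ) (nu : ℝ) (k : ℕ) (e : ℝ) (A G R : Finset E) : Prop :=
  ∃ Y ⊆ A, Y.card ≤ k ∧ TH (fun _ => nu) R (fun N => φ (Y ∪ G ∪ N)) ≤ e

/-- the pool is good with probability at least `1 - t` -/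
def bbp (φ : Finset E → ℝ) (g nu : ℝ) (k : ℕ) (e t : ℝ) (S A : Finset E) : Prop :=
  TH (fun _ => g) S (fun G => ind (¬ good φ nu k e A G (S \ G))) ≤ t

theorem good_mono {φ : Finset E → ℝ} {nu : ℝ} {k : ℕ} {e : ℝ} {A B G R : Finset E} (h : A ⊆ B)
    (hA : good φ nu k e A G R) : good φ nu k e B G R := by
  obtain ⟨Y, h1, h2, h3⟩ := hA
  exact ⟨Y, h1.trans h, h2, h3⟩

theorem ind_mono {P Q : Prop} (h : P → Q) : ind P ≤ ind Q := by
  by_cases hP : P
  · rw [ind_of hP, ind_of (h hP)]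
  · rw [ind_of_not hP]
    exact ind_nonneg _

theorem bbp_mono {φ : Finset E → ℝ} {g nu : ℝ} (g0 : 0 ≤ g) (g1 : g ≤ 1) {k : ℕ} {e t : ℝ}
    {S A B : Finset E} (h : A ⊆ B) (hA : bbp φ g nu k e t S A) : bbp φ g nu k e t S B :=
  (TH_mono (fun _ => g0) (fun _ => g1) S fun _ _ =>
    ind_mono fun hn hA => hn (good_mono h hA)).trans hA

/-- (B1): passing to the world without the new pool -/
theorem bbp_transfer {φ : Finset E → ℝ} (hφ : ∀ U, 0 ≤ φ U) {g g' nu nu' : ℝ}
    (g0 : 0 ≤ g) (g1 : g ≤ 1) (g0' : 0 ≤ g') (g1' : g' ≤ 1) (n0 : 0 ≤ nu') (n1 : nu' ≤ 1)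
    (hg : (1 - g) * g' = g) (hn : (1 - g') * nu' = nu) {k : ℕ} {e e' t t' : ℝ} (he' : 0 < e')
    (he : 0 ≤ e)
    {S K : Finset E} (hK : bbp φ g nu k e t S K) :
    t' * TH (fun _ => g) S (fun G2 => ind (¬ bbp φ g' nu' k e' t' (S \ G2) K)) ≤ t + e / e' := by
  have s1 : t' * TH (fun _ => g) S (fun G2 => ind (¬ bbp φ g' nu' k e' t' (S \ G2) K)) ≤
      TH (fun _ => g) S (fun G2 => TH (fun _ => g') (S \ G2) (fun G =>
        ind (¬ good φ nu' k e' K G ((S \ G2) \ G)))) := by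
    rw [← TH_mul]
    refine TH_mono (fun _ => g0) (fun _ => g1) S fun G2 _ => ?_
    by_cases h : bbp φ g' nu' k e' t' (S \ G2) K
    · rw [ind_of_not (not_not.2 h), mul_zero]
      exact TH_nonneg (fun _ => g0') (fun _ => g1') _ fun _ _ => ind_nonneg _
    · rw [ind_of h, mul_one]
      exact (not_le.1 h).le
  refine s1.trans ?_
  rw [TH_TH_swap (fun _ => g) (fun _ => g') (fun _ => g) (fun _ => g') S (fun _ _ => hg)
    (fun _ _ => hg) (fun G2 G => ind (¬ good φ nu' k e' K G ((S \ G2) \ G)))]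
  have s2 : ∀ G, G ⊆ S → TH (fun _ => g') (S \ G) (fun G2 =>
      ind (¬ good φ nu' k e' K G ((S \ G2) \ G))) ≤
        ind (¬ good φ nu k e K G (S \ G)) + e / e' := by
    intro G _
    by_cases h : good φ nu k e K G (S \ G)
    · rw [ind_of_not (not_not.2 h), zero_add, le_div_iff₀ he', mul_comm]
      obtain ⟨Y, hY, hYk, hYe⟩ := h
      refine le_trans ?_ hYe
      rw [← TH_TH_snd (fun _ => g') (fun _ => nu') (fun _ => nu) (S \ G) (fun _ _ => hn), ← TH_mul]
      refine TH_mono (fun _ => g0') (fun _ => g1') _ fun G2 _ => ?_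
      have hset : (S \ G2) \ G = (S \ G) \ G2 := by
        ext x
        simp only [mem_sdiff]
        tauto
      rw [hset]
      by_cases h2 : good φ nu' k e' K G ((S \ G) \ G2)
      · rw [ind_of_not (not_not.2 h2), mul_zero]
        exact TH_nonneg (fun _ => n0) (fun _ => n1) _ fun _ _ => hφ _
      · rw [ind_of h2, mul_one]
        by_contra h3
        exact h2 ⟨Y, hY, hYk, (not_le.1 h3).le⟩
    · rw [ind_of h]
      have := TH_mono (fun _ => g0') (fun _ => g1') (S \ G) (f := fun G2 =>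
        ind (¬ good φ nu' k e' K G ((S \ G2) \ G))) (g := fun _ => 1) fun _ _ => ind_le_one _
      rw [TH_const] at this
      have : 0 ≤ e / e' := div_nonneg he he'.le
      linarith
  refine (TH_mono (fun _ => g0) (fun _ => g1) S s2).trans ?_
  rw [TH_add, TH_const]
  unfold bbp at hK
  linarith

/-- (B4): the natural part -/
theorem natural_part {φ : Finset E → ℝ} (hφ1 : ∀ U, φ U ≤ 1) {g' nu nu' nu'' : ℝ}
    (g0' : 0 ≤ g') (g1' : g' ≤ 1) (n0 : 0 ≤ nu'') (n1 : nu'' ≤ 1)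
    (hn : g' + (1 - g') * nu'' = nu) {k : ℕ} {e' t' y : ℝ} (hy : 0 ≤ y)
    {R H : Finset E} (hH : bbp φ g' nu' k e' t' R H) :
    TH (fun _ => nu) R (fun N => φ (H ∪ N)) ≤ t' + y + TH (fun _ => g') R (fun G =>
      ind (good φ nu' k e' H G (R \ G) ∧
        y ≤ TH (fun _ => nu'') (R \ G) (fun N => φ (H ∪ G ∪ N)))) := by
  rw [← TH_TH_union (fun _ => g') (fun _ => nu'') (fun _ => nu) R (fun _ _ => hn)
    (fun N => φ (H ∪ N))]
  have s : ∀ G, G ⊆ R → TH (fun _ => nu'') (R \ G) (fun N => φ (H ∪ (G ∪ N))) ≤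
      (ind (¬ good φ nu' k e' H G (R \ G)) + y) + ind (good φ nu' k e' H G (R \ G) ∧
        y ≤ TH (fun _ => nu'') (R \ G) (fun N => φ (H ∪ G ∪ N))) := by
    intro G _
    have hassoc : (fun N => φ (H ∪ (G ∪ N))) = fun N => φ (H ∪ G ∪ N) := by
      funext N
      rw [union_assoc]
    rw [hassoc]
    have hle : TH (fun _ => nu'') (R \ G) (fun N => φ (H ∪ G ∪ N)) ≤ 1 := by
      have := TH_mono (fun _ => n0) (fun _ => n1) (R \ G) (f := fun N => φ (H ∪ G ∪ N))
        (g := fun _ => 1) fun _ _ => hφ1 _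
      rwa [TH_const] at this
    by_cases h1 : good φ nu' k e' H G (R \ G)
    · by_cases h2 : y ≤ TH (fun _ => nu'') (R \ G) (fun N => φ (H ∪ G ∪ N))
      · rw [ind_of (⟨h1, h2⟩ : _ ∧ _), ind_of_not (not_not.2 h1)]
        linarith
      · have h3 : ¬ (good φ nu' k e' H G (R \ G) ∧
            y ≤ TH (fun _ => nu'') (R \ G) (fun N => φ (H ∪ G ∪ N))) := fun h => h2 h.2
        rw [ind_of_not h3, ind_of_not (not_not.2 h1)]
        linarith [not_le.1 h2]
    · have h3 : ¬ (good φ nu' k e' H G (R \ G) ∧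
            y ≤ TH (fun _ => nu'') (R \ G) (fun N => φ (H ∪ G ∪ N))) := fun h => h1 h.1
      rw [ind_of h1, ind_of_not h3]
      linarith
  refine (TH_mono (fun _ => g0') (fun _ => g1') R s).trans ?_
  rw [TH_add, TH_add, TH_const]
  unfold bbp at hH
  linarith

theorem lset_eq_lab {L : Type*} [DecidableEq L] (l : L) (ω : E → L) : lset l ω = lab l ω := rfl

theorem lset_fold_sdiff (τ : E → L5) : lset .a (fold ∘ τ) \ lset .h τ = lset .r τ := by
  ext e
  simp only [mem_sdiff, mem_lset, Function.comp]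
  cases τ e <;> simp [fold]

theorem lset_fold_v (τ : E → L5) : lset .v (fold ∘ τ) = lset .v τ := by
  ext e
  simp only [mem_lset, Function.comp]
  cases τ e <;> simp [fold]

theorem lset_fold_s (τ : E → L5) : lset .s (fold ∘ τ) = lset .s τ := by
  ext e
  simp only [mem_lset, Function.comp]
  cases τ e <;> simp [fold]

theorem lset_h_sub (τ : E → L5) : lset .h τ ⊆ lset .a (fold ∘ τ) := by
  intro e he
  rw [mem_lset] at he ⊢
  simp [he, fold]

theorem sim_s {τ τ' : E → L5} (h : Sim L5.v L5.h τ τ') : lset L5.s τ = lset L5.s τ' := by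
  ext x
  rw [mem_lset, mem_lset]
  rcases h x with h1 | ⟨h1, h2⟩
  · rw [h1]
  · constructor
    · intro h3
      rw [h3] at h1
      rcases h1 with h1 | h1 <;> cases h1
    · intro h3
      rw [h3] at h2
      rcases h2 with h1 | h1 <;> cases h1

theorem sim_r {τ τ' : E → L5} (h : Sim L5.v L5.h τ τ') : lset L5.r τ = lset L5.r τ' := by
  ext x
  rw [mem_lset, mem_lset]
  rcases h x with h1 | ⟨h1, h2⟩
  · rw [h1]
  · constructor
    · intro h3
      rw [h3] at h1
      rcases h1 with h1 | h1 <;> cases h1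
    · intro h3
      rw [h3] at h2
      rcases h2 with h1 | h1 <;> cases h1

theorem flip_r {τ : E → L5} {U : Finset E} (h : ∀ x ∈ U, τ x = L5.v) :
    lset L5.r (H379.flip .h U τ) = lset L5.r τ := by
  ext x
  rw [mem_lset, mem_lset]
  by_cases hx : x ∈ U
  · simp [H379.flip, hx, h x hx]
  · simp [H379.flip, hx]

theorem flip_s {τ : E → L5} {U : Finset E} (h : ∀ x ∈ U, τ x = L5.v) :
    lset L5.s (H379.flip .h U τ) = lset L5.s τ := by
  ext x
  rw [mem_lset, mem_lset]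
  by_cases hx : x ∈ U
  · simp [H379.flip, hx, h x hx]
  · simp [H379.flip, hx]

theorem flip_h {τ : E → L5} {U : Finset E} :
    lset L5.h (H379.flip .h U τ) = U ∪ lset L5.h τ := by
  rw [lset_eq_lab, lset_eq_lab, lab_flip, union_comm]

/-- the event after the transfer -/
def EvS (φ : Finset E → Finset E → ℝ) (g' nu' : ℝ) (k : ℕ) (e' t' : ℝ)
    (Bad : (E → L4) → Prop) (K : (E → L4) → Finset E) (FAIL : (E → L4) → Finset E → Prop)
    (τ : E → L5) : Prop :=
  Bad (fold ∘ τ) ∧ FAIL (fold ∘ τ) (lset .h τ) ∧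
    bbp (φ (lset .s τ)) g' nu' k e' t' (lset .r τ) (K (fold ∘ τ))

theorem stepA (w : L4 → ℝ) (hw0 : ∀ l, 0 ≤ w l)
    {g g' nu nu' : ℝ} (g0 : 0 ≤ g) (g1 : g ≤ 1) (g0' : 0 ≤ g') (g1' : g' ≤ 1)
    (n0' : 0 ≤ nu') (n1' : nu' ≤ 1)
    (hg : (1 - g) * g' = g) (hn : (1 - g') * nu' = nu)
    (φ : Finset E → Finset E → ℝ) (hφ0 : ∀ S U, 0 ≤ φ S U)
    {k : ℕ} {e e' t t' : ℝ} (he : 0 ≤ e) (he' : 0 < e') (ht' : 0 < t')
    (Bad : (E → L4) → Prop) (K : (E → L4) → Finset E)
    (hKb : ∀ ω, Bad ω → bbp (φ (lset .s ω)) g nu k e t (lset .a ω) (K ω))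
    (FAIL : (E → L4) → Finset E → Prop) {m : ℝ}
    (hF : ∀ ω, Bad ω → m ≤ TH (fun _ => g) (lset .a ω) (fun G => ind (FAIL ω G))) :
    (m - (t + e / e') / t') * EX (fun _ : E => w) (fun ω => ind (Bad ω)) ≤
      EX (fun _ : E => w5 g w) (fun τ => ind (EvS φ g' nu' k e' t' Bad K FAIL τ)) := by
  have W0 : ∀ (e : E) (l : L4), 0 ≤ (fun _ : E => w) e l := fun _ l => hw0 l
  have h1 := EX_pool w g (fun (ω : E → L4) G => ind (Bad ω ∧ FAIL ω G ∧
      bbp (φ (lset .s ω)) g' nu' k e' t' (lset .a ω \ G) (K ω)))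
  have h2 : (fun τ : E → L5 => ind (Bad (fold ∘ τ) ∧ FAIL (fold ∘ τ) (lset .h τ) ∧
        bbp (φ (lset .s (fold ∘ τ))) g' nu' k e' t' (lset .a (fold ∘ τ) \ lset .h τ)
          (K (fold ∘ τ)))) = fun τ => ind (EvS φ g' nu' k e' t' Bad K FAIL τ) := by
    funext τ
    unfold EvS
    rw [lset_fold_sdiff, lset_fold_s]
  rw [h2] at h1
  rw [← h1, ← EX_mul]
  refine EX_mono W0 fun ω => ?_
  by_cases hB : Bad ω
  · rw [ind_of hB, mul_one]
    have h3 := bbp_transfer (hφ0 (lset .s ω)) g0 g1 g0' g1' n0' n1' hg hn (t' := t') he' he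
        (hKb ω hB)
    have h4 : TH (fun _ => g) (lset .a ω) (fun G => ind (FAIL ω G)) ≤
          TH (fun _ => g) (lset .a ω) (fun G => ind (Bad ω ∧ FAIL ω G ∧
            bbp (φ (lset .s ω)) g' nu' k e' t' (lset .a ω \ G) (K ω)) +
            ind (¬ bbp (φ (lset .s ω)) g' nu' k e' t' (lset .a ω \ G) (K ω))) := by
      refine TH_mono (fun _ => g0) (fun _ => g1) _ fun G _ => ?_
      by_cases h5 : bbp (φ (lset .s ω)) g' nu' k e' t' (lset .a ω \ G) (K ω)
      · rw [ind_of_not (not_not.2 h5), add_zero]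
        exact ind_mono fun h6 => ⟨hB, h6, h5⟩
      · rw [ind_of h5]
        have := ind_le_one (FAIL ω G)
        have := ind_nonneg (Bad ω ∧ FAIL ω G ∧
            bbp (φ (lset .s ω)) g' nu' k e' t' (lset .a ω \ G) (K ω))
        linarith
    rw [TH_add] at h4
    have h5 := hF ω hB
    have h6 : TH (fun _ => g) (lset .a ω) (fun G =>
          ind (¬ bbp (φ (lset .s ω)) g' nu' k e' t' (lset .a ω \ G) (K ω))) ≤
          (t + e / e') / t' := by
      rw [le_div_iff₀ ht', mul_comm]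
      exact h3
    linarith
  · rw [ind_of_not hB, mul_zero]
    exact TH_nonneg (fun _ => g0) (fun _ => g1) _ fun _ _ => ind_nonneg _

/-- the test function -/
noncomputable def psiS (φ : Finset E → Finset E → ℝ) (nu : ℝ) (τ : E → L5) : ℝ :=
  TH (fun _ => nu) (lset .r τ) (fun N => φ (lset .s τ) (lset .h τ ∪ N))

/-- the `QJRL` event -/
noncomputable def qEv (φ : Finset E → Finset E → ℝ) (g' nu' nu'' : ℝ) (k : ℕ) (e' y : ℝ)
    (τ : E → L5) : ℝ :=
  TH (fun _ => g') (lset .r τ) (fun G =>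
      ind (good (φ (lset .s τ)) nu' k e' (lset .h τ) G (lset .r τ \ G) ∧
        y ≤ TH (fun _ => nu'') (lset .r τ \ G) (fun N => φ (lset .s τ) (lset .h τ ∪ G ∪ N))))

theorem stepD (w : L4 → ℝ) (hw0 : ∀ l, 0 ≤ w l) (hw1 : ∑ l, w l = 1)
    {g g' nu nu' nu'' : ℝ} (g0 : 0 ≤ g) (g1 : g ≤ 1) (g0' : 0 ≤ g') (g1' : g' ≤ 1)
    (n0'' : 0 ≤ nu'') (n1'' : nu'' ≤ 1) (hn'' : g' + (1 - g') * nu'' = nu)
    (φ : Finset E → Finset E → ℝ) (hφ1 : ∀ S U, φ S U ≤ 1)
    {k : ℕ} {e' t' y : ℝ} (ht' : 0 < t') (hy : 0 ≤ y) {q : ℝ}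
    (hQ : EX (fun _ : E => w5 g w) (qEv φ g' nu' nu'' k e' y) ≤ q) :
    EX (fun _ : E => w5 g w) (fun τ =>
      if bbp (φ (lset .s τ)) g' nu' k e' t' (lset .r τ) (lab .h τ) then psiS φ nu τ else 0) ≤
      t' + y + q := by
  have W50 : ∀ (e : E) (l : L5), 0 ≤ (fun _ : E => w5 g w) e l := fun _ l =>
    w5_nonneg g0 g1 hw0 l
  have W51 : ∀ e : E, ∑ l, (fun _ : E => w5 g w) e l = 1 := fun _ => w5_sum hw1
  have h1 : ∀ τ : E → L5, (if bbp (φ (lset .s τ)) g' nu' k e' t' (lset .r τ) (lab .h τ) then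
      psiS φ nu τ else 0) ≤ (t' + y) + qEv φ g' nu' nu'' k e' y τ := by
    intro τ
    have h0 : 0 ≤ qEv φ g' nu' nu'' k e' y τ :=
      TH_nonneg (fun _ => g0') (fun _ => g1') _ fun _ _ => ind_nonneg _
    split_ifs with hf
    · exact natural_part (hφ1 (lset .s τ)) g0' g1' n0'' n1'' hn'' hy hf
    · linarith
  refine (EX_mono W50 h1).trans ?_
  rw [EX_add, EX_one _ W51]
  linarith

/-- **One step of the chain.** -/
theorem step (w : L4 → ℝ) (hw0 : ∀ l, 0 ≤ w l) (hw1 : ∑ l, w l = 1)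
    {g g' nu nu' nu'' lam : ℝ} (g0 : 0 ≤ g) (g1 : g ≤ 1) (g0' : 0 ≤ g') (g1' : g' ≤ 1)
    (n0 : 0 ≤ nu) (n1 : nu ≤ 1)
    (n0' : 0 ≤ nu') (n1' : nu' ≤ 1) (n0'' : 0 ≤ nu'') (n1'' : nu'' ≤ 1)
    (hg : (1 - g) * g' = g) (hn : (1 - g') * nu' = nu) (hn'' : g' + (1 - g') * nu'' = nu)
    (hlam : 1 ≤ lam) (hwl : lam * w .v ≤ w .a * g)
    (φ : Finset E → Finset E → ℝ) (hφ0 : ∀ S U, 0 ≤ φ S U) (hφ1 : ∀ S U, φ S U ≤ 1)
    {k k' : ℕ} {e e' t t' y : ℝ} (he : 0 ≤ e) (he' : 0 < e') (ht' : 0 < t') (hy : 0 ≤ y)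
    (Bad : (E → L4) → Prop) (K : (E → L4) → Finset E) (hKv : ∀ ω, Bad ω → K ω ⊆ lset .v ω)
    (hKb : ∀ ω, Bad ω → bbp (φ (lset .s ω)) g nu k e t (lset .a ω) (K ω))
    (FAIL : (E → L4) → Finset E → Prop) {m eps : ℝ} (heps : 0 ≤ eps)
    (hF : ∀ ω, Bad ω → m ≤ TH (fun _ => g) (lset .a ω) (fun G => ind (FAIL ω G)))
    (X : (E → L4) → Finset E → Finset E → ℝ) (hX0 : ∀ ω G N, 0 ≤ X ω G N)
    (hFX : ∀ ω G, Bad ω → G ⊆ lset .a ω → FAIL ω G → ∀ U ⊆ K ω, U.card ≤ k' →
      eps ≤ TH (fun _ => nu) (lset .a ω \ G) (fun N => φ (lset .s ω) (U ∪ G ∪ N) + X ω G N))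
    {xi q : ℝ}
    (hX : EX (fun _ : E => w) (fun ω => TH (fun _ => g) (lset .a ω) (fun G =>
      TH (fun _ => nu) (lset .a ω \ G) (fun N => X ω G N))) ≤ xi)
    (hQ : EX (fun _ : E => w5 g w) (qEv φ g' nu' nu'' k e' y) ≤ q) :
    eps * ((m - (t + e / e') / t') * EX (fun _ : E => w) (fun ω => ind (Bad ω))) ≤
      eps / lam ^ (k' + 1) + (t' + y + q + xi) := by
  have W50 : ∀ (e : E) (l : L5), 0 ≤ (fun _ : E => w5 g w) e l := fun _ l =>
    w5_nonneg g0 g1 hw0 l
  have W51 : ∀ e : E, ∑ l, (fun _ : E => w5 g w) e l = 1 := fun _ => w5_sum hw1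
  have hA := stepA w hw0 g0 g1 g0' g1' n0' n1' hg hn φ hφ0 he he' ht' Bad K hKb FAIL hF
  obtain ⟨U, hU1, hU2, hU3⟩ := jstar_label' (E := E) L5.v L5.h (by decide)
    (fun _ : E => w5 g w) W50 lam hlam (fun _ => hwl)
    (fun τ A => bbp (φ (lset L5.s τ)) g' nu' k e' t' (lset L5.r τ) A)
    (fun τ A B hAB hA => bbp_mono g0' g1' hAB hA)
    (fun τ τ' hs A hA => by
      rw [← sim_s hs, ← sim_r hs]
      exact hA)
    (EvS φ g' nu' k e' t' Bad K FAIL) (fun τ => K (fold ∘ τ))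
    (fun τ hτ => ⟨fun x hx => by
      have := hKv _ hτ.1 hx
      rw [lset_fold_v, mem_lset] at this
      exact this, hτ.2.2⟩)
  have hUv : ∀ τ, EvS φ g' nu' k e' t' Bad K FAIL τ → ∀ x ∈ U τ, τ x = L5.v := by
    intro τ hτ x hx
    have := hKv _ hτ.1 ((hU1 τ hτ).1 hx)
    rw [lset_fold_v, mem_lset] at this
    exact this
  have hpsi0 : ∀ τ : E → L5, 0 ≤ psiS φ nu τ := fun τ =>
    TH_nonneg (fun _ => n0) (fun _ => n1) _ fun _ _ => hφ0 _ _
  have hB : ∀ τ : E → L5, eps * ind (EvS φ g' nu' k e' t' Bad K FAIL τ) ≤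
      eps * (if EvS φ g' nu' k e' t' Bad K FAIL τ ∧ k' + 1 ≤ (U τ).card then 1 else 0) +
      (if EvS φ g' nu' k e' t' Bad K FAIL τ then psiS φ nu (H379.flip .h (U τ) τ) else 0) +
      TH (fun _ => nu) (lset .a (fold ∘ τ) \ lset .h τ) (fun N => X (fold ∘ τ) (lset .h τ) N) := by
    intro τ
    have hXn : 0 ≤ TH (fun _ => nu) (lset .a (fold ∘ τ) \ lset .h τ)
        (fun N => X (fold ∘ τ) (lset .h τ) N) :=
      TH_nonneg (fun _ => n0) (fun _ => n1) _ fun _ _ => hX0 _ _ _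
    by_cases hτ : EvS φ g' nu' k e' t' Bad K FAIL τ
    · rw [ind_of hτ, if_pos hτ]
      have hp0 := hpsi0 (H379.flip .h (U τ) τ)
      by_cases hc : k' + 1 ≤ (U τ).card
      · rw [if_pos ⟨hτ, hc⟩]
        linarith
      · rw [if_neg (fun h => hc h.2)]
        have h1 := hFX (fold ∘ τ) (lset .h τ) hτ.1 (lset_h_sub τ) hτ.2.1 (U τ) (hU1 τ hτ).1
          (by omega)
        rw [TH_add] at h1
        rw [lset_fold_sdiff, lset_fold_s] at h1
        rw [lset_fold_sdiff]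
        unfold psiS
        rw [flip_r (hUv τ hτ), flip_s (hUv τ hτ), flip_h]
        linarith
    · rw [ind_of_not hτ, mul_zero, if_neg hτ, if_neg (fun h => hτ h.1)]
      linarith
  have hC := EX_mono W50 hB
  rw [EX_mul, EX_add, EX_add, EX_mul] at hC
  have hD1 : EX (fun _ : E => w5 g w)
      (fun τ => if EvS φ g' nu' k e' t' Bad K FAIL τ ∧ k' + 1 ≤ (U τ).card then (1 : ℝ) else 0) ≤
      1 / lam ^ (k' + 1) := by
    rw [le_div_iff₀ (by positivity), mul_comm]
    exact hU3 (k' + 1) W51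
  have hD2 := hU2 (psiS φ nu) hpsi0
  have hD3 := stepD w hw0 hw1 g0 g1 g0' g1' n0'' n1'' hn'' φ hφ1 ht' hy hQ
  have hD4 : EX (fun _ : E => w5 g w) (fun τ => TH (fun _ => nu)
      (lset .a (fold ∘ τ) \ lset .h τ) (fun N => X (fold ∘ τ) (lset .h τ) N)) ≤ xi := by
    rw [← EX_pool w g (fun (ω : E → L4) G => TH (fun _ => nu) (lset .a ω \ G) (fun N => X ω G N))]
    exact hX
  have hE : eps * EX (fun _ : E => w5 g w) (fun τ => ind (EvS φ g' nu' k e' t' Bad K FAIL τ)) ≤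
      eps / lam ^ (k' + 1) + (t' + y + q + xi) := by
    have := mul_le_mul_of_nonneg_left hD1 heps
    have h7 : eps * (1 / lam ^ (k' + 1)) = eps / lam ^ (k' + 1) := by ring
    rw [h7] at this
    linarith
  exact (mul_le_mul_of_nonneg_left hA heps).trans hE

end Vale.Agent.P331.H420
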